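import Vale.Agent.Lib.P154.Neg.LP.B4340.D

/-!
Part of the computations of a certificate for a restricted range of `theta`.
-/

namespace Vale.Agent.Lib.P154.Neg.B4340

open Vale.Agent.Lib.P154.Neg.Kron Vale.Agent.Lib.P154.Neg Vale.Agent.Lib.P154.Neg.Cst

theorem ctY2_0 : checkCT C.A C.eY2 (MC C.a0 C.b0 C.c0) tY2_0 = true := by decide +kernel

theorem ctQ1_0 : checkTree 4 (eQ1t C) btQ1_root tQ1_0 = true := by decide +kernel

theorem ctQ3_2 : checkTree 4 (eQ3t C) btQ3_1l tQ3_2 = true := by decide +kernel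

theorem ctQ3_3 : checkTree 4 (eQ3t C) btQ3_1r tQ3_3 = true := by decide +kernel

end Vale.Agent.Lib.P154.Neg.B4340
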